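import Vale.Agent.P146.R2.H729.TrDef

/-!
# P146: transport of the disorder, row B: the determinant
-/

open Matrix

namespace Vale.Agent.P146.R2.H732

theorem log_ge {x : ℝ} (h1 : x ^ 2 ≤ 1 / 4) : -x - x ^ 2 ≤ Real.log (1 - x) := by
  have h2 : |x| ≤ 1 / 2 := by
    rw [show (1 / 2 : ℝ) = |1 / 2| by norm_num]
    exact sq_le_sq.1 (by linarith)
  have h3 := abs_le.1 h2
  rcases le_total 0 x with hx | hx
  · have h4 := Real.abs_log_sub_add_sum_range_le (x := x) (by linarith) 4
    simp only [Finset.sum_range_succ, Finset.sum_range_zero] at h4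
    norm_num at h4
    rw [abs_of_nonneg hx] at h4
    have h5 := (abs_le.1 h4).1
    have h6 : x ^ 5 / (1 - x) ≤ 2 * x ^ 5 := by
      rw [div_le_iff₀ (by linarith)]
      have : 0 ≤ x ^ 5 := by positivity
      nlinarith
    have h7 : 0 ≤ x ^ 2 * (1 / 2 - x / 3 - x ^ 2 / 4 - 2 * x ^ 3) := by
      have h8 : x ^ 3 ≤ 1 / 8 := by
        calc x ^ 3 ≤ (1 / 2) ^ 3 := by gcongr; exact h3.2
          _ = 1 / 8 := by norm_num
      have : 0 ≤ 1 / 2 - x / 3 - x ^ 2 / 4 - 2 * x ^ 3 := by linarith
      positivity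
    nlinarith
  · have h4 : Real.log (1 / (1 - x)) ≤ 1 / (1 - x) - 1 :=
      Real.log_le_sub_one_of_pos (by apply one_div_pos.2; linarith)
    rw [one_div, Real.log_inv] at h4
    have h5 : (1 - x)⁻¹ - 1 ≤ x + x ^ 2 := by
      rw [sub_le_iff_le_add, inv_le_iff_one_le_mul₀ (by linarith)]
      have : 0 ≤ x ^ 2 := sq_nonneg x
      nlinarith
    linarith

/-- Row B: the determinant. -/
theorem det_bound {κ : Type} [Fintype κ] [DecidableEq κ] (K : Matrix κ κ ℝ) (hs : K.IsSymm)
    (hK : ∀ x : κ → ℝ, ∑ e, (K *ᵥ x) e ^ 2 ≤ 1 / 4 * ∑ e, x e ^ 2) :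
    (1 - K).det ≠ 0 ∧ -K.trace - (K * K).trace ≤ Real.log |(1 - K).det| := by
  have hA : K.IsHermitian := by
    rw [Matrix.IsHermitian, Matrix.conjTranspose_eq_transpose_of_trivial]
    exact hs
  set lam : κ → ℝ := hA.eigenvalues with hlam
  have hlam2 : ∀ i, lam i ^ 2 ≤ 1 / 4 := by
    intro i
    have h1 := hA.mulVec_eigenvectorBasis i
    have h2 := hK (hA.eigenvectorBasis i)
    have h3 : ∑ e, (hA.eigenvectorBasis i : κ → ℝ) e ^ 2 = 1 := by
      have h4 := hA.eigenvectorBasis.orthonormal.1 i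
      rw [EuclideanSpace.norm_eq, Real.sqrt_eq_one] at h4
      rw [← h4]
      refine Finset.sum_congr rfl fun e _ => ?_
      rw [Real.norm_eq_abs, sq_abs]
    rw [h1, h3] at h2
    have h5 : ∑ e, ((lam i • (hA.eigenvectorBasis i : κ → ℝ)) e) ^ 2 = lam i ^ 2 := by
      simp only [Pi.smul_apply, smul_eq_mul, mul_pow]
      rw [← Finset.mul_sum, h3, mul_one]
    rw [← hlam, h5] at h2
    linarith
  let U : Matrix κ κ ℝ := (hA.eigenvectorUnitary : Matrix κ κ ℝ)
  have hU1 : U * star U = 1 := Unitary.coe_mul_star_self hA.eigenvectorUnitary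
  have hU2 : star U * U = 1 := Unitary.coe_star_mul_self hA.eigenvectorUnitary
  have hsp : K = U * diagonal lam * star U := by
    have := hA.spectral_theorem
    rw [Unitary.conjStarAlgAut_apply] at this
    exact this
  have h1K : 1 - K = U * diagonal (fun i => 1 - lam i) * star U := by
    have h1 : diagonal (fun i => 1 - lam i) = 1 - diagonal lam := by
      rw [← diagonal_one, diagonal_sub]
    rw [h1, mul_sub, sub_mul, mul_one, hU1, ← hsp]
  have hdet : (1 - K).det = ∏ i, (1 - lam i) := by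
    rw [h1K, det_mul, det_mul, det_diagonal, mul_comm, ← mul_assoc, ← det_mul, hU2, det_one,
      one_mul]
  have htr : K.trace = ∑ i, lam i := by
    rw [hsp, Matrix.trace_mul_comm, ← mul_assoc, hU2, one_mul, trace_diagonal]
  have htr2 : (K * K).trace = ∑ i, lam i ^ 2 := by
    have h1 : K * K = U * diagonal (fun i => lam i ^ 2) * star U := by
      calc K * K = (U * diagonal lam * star U) * (U * diagonal lam * star U) := by rw [← hsp]
        _ = U * diagonal lam * (star U * U) * diagonal lam * star U := by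
            simp only [mul_assoc]
        _ = U * (diagonal lam * diagonal lam) * star U := by
            rw [hU2, mul_one, mul_assoc U]
        _ = _ := by rw [diagonal_mul_diagonal]; simp only [sq]
    rw [h1, Matrix.trace_mul_comm, ← mul_assoc, hU2, one_mul, trace_diagonal]
  have hpos : ∀ i, 0 < 1 - lam i := by
    intro i
    nlinarith [hlam2 i]
  refine ⟨?_, ?_⟩
  · rw [hdet]
    exact (Finset.prod_pos fun i _ => hpos i).ne'
  · rw [hdet, abs_of_pos (Finset.prod_pos fun i _ => hpos i),
      Real.log_prod (fun i _ => (hpos i).ne'), htr, htr2, ← Finset.sum_neg_distrib,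
      ← Finset.sum_sub_distrib]
    exact Finset.sum_le_sum fun i _ => log_ge (hlam2 i)

theorem stB : Vale.Agent.P146.R2.H729.Tr.StB := fun K hs hK => det_bound K hs hK

end Vale.Agent.P146.R2.H732
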